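import Vale.Agent.P207.N4.H832.Angle

/-!
# P207, all dimensions: the vector equation of the angle

`w = tl (kap I (φ s x) ξ)` satisfies `w' = - U w + O(ε |w|)` as long as `w` is small, uniformly.
-/

open Set Filter Topology Metric
open scoped ContDiff

set_option linter.all false

noncomputable section

namespace Vale.Agent.P207.N4.H734.AngV

open Vale.Agent.P207.N3 Vale.Agent.P207.N4.H832

variable [Dim]

open Vale.Agent.P207.N4.H76 (pk tl e0 sg)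
open Vale.Agent.P207.N4.H722 (GeoIn)

variable {Γ X B : Type} [Group Γ] [MetricSpace X] [ProperSpace X] [MulAction Γ X]
  [IsIsometricSMul Γ X] [TopologicalSpace B] [CompactSpace B] [T2Space B] [MulAction Γ B]
  [ContinuousConstSMul Γ B] {L : Leaf Γ X B} {V : Type} [NormedAddCommGroup V] [NormedSpace ℝ V]
  [FiniteDimensional ℝ V] {I : GeoIn L V} {U : X → E2 →L[ℝ] E2} {Gam : V → V →L[ℝ] V →L[ℝ] V}

/-- the covariant derivative of the field of directions -/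
def Uh (I : GeoIn L V) (Gam : V → V →L[ℝ] V →L[ℝ] V) (ξ : B) (q v : V) : V :=
  fderiv ℝ (I.vel ξ) q v + Gam q v (I.vel ξ q)

theorem Uh_add (ξ : B) (q v w : V) : Uh I Gam ξ q (v + w) = Uh I Gam ξ q v + Uh I Gam ξ q w := by
  simp only [Uh, map_add, add_apply]
  abel

theorem Uh_smul (ξ : B) (q : V) (c : ℝ) (v : V) : Uh I Gam ξ q (c • v) = c • Uh I Gam ξ q v := by
  simp only [Uh, map_smul, smul_apply, smul_add]

theorem Uh_frame (hC : Cov I U Gam) (y : X) (τ : E3) :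
    Uh I Gam (L.em y) (I.S.ft y) (I.E y τ) = I.E y (pk 0 (U y (tl τ))) := by
  rw [Uh, hC.deriv_vel y τ, I.vel_eq H459.invThm]
  abel

theorem Uh_vel (hC : Cov I U Gam) (ξ : B) (q : V) : Uh I Gam ξ q (I.vel ξ q) = 0 := by
  obtain ⟨y, hy, hq, -⟩ := I.exists_frame ξ q
  have h := Uh_frame hC y e0
  rw [← I.vel_eq H459.invThm, hy, hq] at h
  rw [h]
  have h1 : tl (e0 : E3) = 0 := by
    rw [e0]
    simp
  rw [h1, map_zero]
  rw [H76.pk_zero_right, zero_smul, map_zero]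

/-- the derivative of the tangential part -/
theorem hasDerivAt_tl (hC : Cov I U Gam) (x : X) (ξ : B) (s : ℝ) :
    HasDerivAt (fun r => tl (kap I (L.φ r x) ξ))
      (tl ((I.EE (L.φ s x)).symm (Uh I Gam ξ (I.S.ft (L.φ s x)) (I.E (L.φ s x) e0)))) s := by
  set z := L.φ s x with hz
  have hq' : HasDerivAt (fun s => I.S.ft (L.φ s x)) (I.E z e0) s := I.hasDerivAt_ft x s
  set k₀ : E3 := kap I z ξ with hk₀
  have hR : HasDerivAt (fun s => I.vel ξ (I.S.ft (L.φ s x)) - I.E (L.φ s x) k₀)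
      (Uh I Gam ξ (I.S.ft z) (I.E z e0)) s := by
    have hd : DifferentiableAt ℝ (I.vel ξ) (I.S.ft z) :=
      (I.vel_jc H459.invThm).differentiableAt (p := (ξ, I.S.ft z)) (mem_univ _)
    have h1 : HasDerivAt (fun s => I.vel ξ (I.S.ft (L.φ s x)))
        (fderiv ℝ (I.vel ξ) (I.S.ft z) (I.E z e0)) s :=
      hd.hasFDerivAt.comp_hasDerivAt s hq'
    have h2 := h1.sub (hC.E_deriv x k₀ s)
    refine h2.congr_deriv ?_
    rw [← hz, hk₀, E_kap, Uh]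
    abel
  have hR0 : I.vel ξ (I.S.ft (L.φ s x)) - I.E (L.φ s x) k₀ = 0 := by
    rw [← hz, hk₀, E_kap, sub_self]
  have key : ∀ v : E2, HasDerivAt (fun r => inner ℝ v (tl (kap I (L.φ r x) ξ)))
      (inner ℝ v (tl ((I.EE z).symm (Uh I Gam ξ (I.S.ft z) (I.E z e0))))) s := by
    intro v
    have h4 := hd_bil I.G_smooth hq' hR (hC.E_deriv x (pk 0 v) s) hR0
    have h5 : (fun r => inner ℝ v (tl (kap I (L.φ r x) ξ))) = fun r =>
        I.G (I.S.ft (L.φ r x)) (I.vel ξ (I.S.ft (L.φ r x)) - I.E (L.φ r x) k₀)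
          (I.E (L.φ r x) (pk 0 v)) + inner ℝ k₀ (pk 0 v) := by
      funext r
      have h6 : I.G (I.S.ft (L.φ r x)) (I.E (L.φ r x) k₀) (I.E (L.φ r x) (pk 0 v)) =
          inner ℝ k₀ (pk 0 v) := I.G_E _ _ _
      rw [map_sub, sub_apply, h6, sub_add_cancel, ← E_kap, I.G_E, ← inner_pk_zero, real_inner_comm]
    rw [h5]
    refine (h4.add_const _).congr_deriv ?_
    rw [← hz]
    conv_lhs => rw [← (I.EE z).apply_symm_apply (Uh I Gam ξ (I.S.ft z) (I.E z e0))]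
    rw [I.EE_apply, I.G_E, ← inner_pk_zero, real_inner_comm]
  have hb : ∀ w : E2, w = ∑ i, inner ℝ (EuclideanSpace.basisFun _ ℝ i) w •
      (EuclideanSpace.basisFun _ ℝ i) := fun w =>
    ((EuclideanSpace.basisFun _ ℝ).sum_repr' w).symm
  have h7 : HasDerivAt (fun r => ∑ i, inner ℝ (EuclideanSpace.basisFun _ ℝ i)
      (tl (kap I (L.φ r x) ξ)) • (EuclideanSpace.basisFun _ ℝ i : E2))
      (∑ i, inner ℝ (EuclideanSpace.basisFun _ ℝ i)
        (tl ((I.EE z).symm (Uh I Gam ξ (I.S.ft z) (I.E z e0)))) •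
        (EuclideanSpace.basisFun _ ℝ i : E2)) s :=
    HasDerivAt.fun_sum fun i _ => (key _).smul_const _
  rw [← hb] at h7
  refine h7.congr_of_eventuallyEq (Eventually.of_forall fun r => ?_)
  exact hb _

/-- the operator of the equation -/
def Wz (I : GeoIn L V) (Gam : V → V →L[ℝ] V →L[ℝ] V) (z : X) (ξ : B) (v : E2) : E2 :=
  tl ((I.EE z).symm (Uh I Gam ξ (I.S.ft z) (I.E z (pk 0 v))))

theorem symm_E (z : X) (c : E3) : (I.EE z).symm (I.E z c) = c := (I.EE z).symm_apply_apply c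

theorem Wz_em (hC : Cov I U Gam) (z : X) (v : E2) : Wz I Gam z (L.em z) v = U z v := by
  rw [Wz, Uh_frame hC, symm_E, H76.tl_pk, H76.tl_pk]

theorem kap_split (z : X) (ξ : B) :
    kap I z ξ = ca I z ξ • e0 + pk 0 (tl (kap I z ξ)) := by
  have h := H76.pk_tl (kap I z ξ)
  rw [← H76.pk_zero_right, ← H76.pk_add, add_zero, zero_add]
  exact h.symm

/-- the exact equation -/
theorem ode_c (hC : Cov I U Gam) (z : X) (ξ : B) :
    ca I z ξ • tl ((I.EE z).symm (Uh I Gam ξ (I.S.ft z) (I.E z e0))) =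
      -Wz I Gam z ξ (tl (kap I z ξ)) := by
  have h1 := Uh_vel hC ξ (I.S.ft z)
  rw [← E_kap] at h1
  conv at h1 =>
    lhs
    arg 5
    rw [kap_split, map_add, map_smul]
  rw [Uh_add, Uh_smul] at h1
  have h2 := congrArg (fun v => tl ((I.EE z).symm v)) h1
  simp only [map_add, map_smul, map_zero] at h2
  rw [H76.tl_add, H76.tl_smul] at h2
  have h3 : tl (0 : E3) = 0 := by
    have := H76.tl_smul (0 : ℝ) (0 : E3)
    rwa [zero_smul, zero_smul] at this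
  rw [h3] at h2
  exact eq_neg_of_add_eq_zero_left h2

/-! ### invariance -/

section inv

variable (hE : ∀ (g : Γ) x c, I.E (g • x) c = fderiv ℝ (I.act g) (I.S.ft x) (I.E x c))

include hE in
theorem kap_smul (g : Γ) (z : X) (ξ : B) : kap I (g • z) (g • ξ) = kap I z ξ := by
  obtain ⟨y, hy, hq, -⟩ := I.exists_frame ξ (I.S.ft z)
  apply (I.E_bij (g • z)).1
  rw [E_kap, hE, E_kap, I.act_ft, ← hq, ← I.act_ft, ← hy, ← L.em_smul, I.vel_eq H459.invThm,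
    I.vel_eq H459.invThm, hE]

include hE in
theorem Wz_smul (hC : Cov I U Gam) (hU : ∀ (g : Γ) x, U (g • x) = U x) (g : Γ) (z : X) (ξ : B)
    (v : E2) : Wz I Gam (g • z) (g • ξ) v = Wz I Gam z ξ v := by
  obtain ⟨y, hy, hq, -⟩ := I.exists_frame ξ (I.S.ft z)
  set τ : E3 := (I.EE y).symm (I.E z (pk 0 v)) with hτ
  have h1 : I.E y τ = I.E z (pk 0 v) := (I.EE y).apply_symm_apply _
  have h2 : I.E (g • z) (pk 0 v) = I.E (g • y) τ := by
    rw [hE, hE, h1, hq]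
  set u : E3 := (I.EE z).symm (Uh I Gam ξ (I.S.ft z) (I.E z (pk 0 v))) with hu
  have h3 : I.E z u = Uh I Gam ξ (I.S.ft z) (I.E z (pk 0 v)) := (I.EE z).apply_symm_apply _
  have h4 : Uh I Gam (g • ξ) (I.S.ft (g • z)) (I.E (g • z) (pk 0 v)) = I.E (g • z) u := by
    rw [h2, I.act_ft, ← hq, ← I.act_ft, ← hy, ← L.em_smul, Uh_frame hC, hU, hE, ← Uh_frame hC,
      hE g z u, h3, hy, hq, h1]
  show tl ((I.EE (g • z)).symm _) = tl u
  rw [h4, symm_E]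

end inv

/-! ### bounds -/

theorem norm_tl_le (c : E3) : ‖tl c‖ ≤ ‖c‖ := by
  have h := H76.norm_sq c
  nlinarith [norm_nonneg c, norm_nonneg (tl c), sq_nonneg (c 0)]

theorem vel_cont (I : GeoIn L V) : Continuous fun p : B × V => I.vel p.1 p.2 := by
  have h := (I.vel_jc H459.invThm).continuousOn
  rwa [continuousOn_univ] at h

theorem dvel_cont (I : GeoIn L V) : Continuous fun p : B × V => fderiv ℝ (I.vel p.1) p.2 := by
  have h := (I.vel_jc H459.invThm).fderiv.continuousOn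
  rwa [continuousOn_univ] at h

theorem bil_bound {F : Type*} [NormedAddCommGroup F] [NormedSpace ℝ F] (b : E3 →ₗ[ℝ] E3 →ₗ[ℝ] F)
    (hs : ∀ u v, b u v = b v u) {M : ℝ} (hM : ∀ u, ‖u‖ = 1 → ‖b u u‖ ≤ M) (u v : E3) :
    ‖b u v‖ ≤ M * (‖u‖ * ‖v‖) := by
  have h1 : ∀ u, ‖b u u‖ ≤ M * ‖u‖ ^ 2 := by
    intro u
    rcases eq_or_ne u 0 with rfl | hu
    · simp
    have hu' : ‖u‖ ≠ 0 := norm_ne_zero_iff.2 hu
    have h2 := hM (‖u‖⁻¹ • u) (by rw [norm_smul, norm_inv, norm_norm, inv_mul_cancel₀ hu'])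
    rw [map_smul, map_smul, LinearMap.smul_apply, smul_smul, norm_smul] at h2
    have h3 : ‖(‖u‖⁻¹ * ‖u‖⁻¹ : ℝ)‖ = (‖u‖ ^ 2)⁻¹ := by
      rw [Real.norm_of_nonneg (by positivity), sq, mul_inv]
    rw [h3] at h2
    have h4 : 0 < ‖u‖ ^ 2 := by positivity
    calc ‖b u u‖ = ((‖u‖ ^ 2)⁻¹ * ‖b u u‖) * ‖u‖ ^ 2 := by field_simp
      _ ≤ M * ‖u‖ ^ 2 := by gcongr
  have h2 : ∀ u v, ‖b u v‖ ≤ M * (‖u‖ ^ 2 + ‖v‖ ^ 2) / 2 := by
    intro u v
    have h3 : (4 : ℝ) • b u v = b (u + v) (u + v) - b (u - v) (u - v) := by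
      simp only [map_add, map_sub, LinearMap.add_apply, LinearMap.sub_apply]
      rw [hs v u]
      module
    have h4 : ‖(4 : ℝ) • b u v‖ ≤ M * ‖u + v‖ ^ 2 + M * ‖u - v‖ ^ 2 := by
      rw [h3]
      exact (norm_sub_le _ _).trans (add_le_add (h1 _) (h1 _))
    rw [norm_smul, Real.norm_of_nonneg (by norm_num : (0:ℝ) ≤ 4)] at h4
    have h5 := parallelogram_law_with_norm ℝ u v
    have h6 : M * ‖u + v‖ ^ 2 + M * ‖u - v‖ ^ 2 = 2 * (M * (‖u‖ ^ 2 + ‖v‖ ^ 2)) := by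
      have : ‖u + v‖ ^ 2 + ‖u - v‖ ^ 2 = 2 * (‖u‖ ^ 2 + ‖v‖ ^ 2) := by nlinarith
      rw [← mul_add, this]
      ring
    linarith
  rcases eq_or_ne u 0 with rfl | hu
  · simp
  rcases eq_or_ne v 0 with rfl | hv
  · simp
  have hu' : 0 < ‖u‖ := norm_pos_iff.2 hu
  have hv' : 0 < ‖v‖ := norm_pos_iff.2 hv
  have h3 := h2 (‖u‖⁻¹ • u) (‖v‖⁻¹ • v)
  rw [norm_smul, norm_smul, norm_inv, norm_inv, norm_norm, norm_norm, inv_mul_cancel₀ hu'.ne',
    inv_mul_cancel₀ hv'.ne', map_smul, map_smul, LinearMap.smul_apply, smul_smul, norm_smul] at h3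
  have h4 : ‖(‖v‖⁻¹ * ‖u‖⁻¹ : ℝ)‖ = (‖u‖ * ‖v‖)⁻¹ := by
    rw [Real.norm_of_nonneg (by positivity), mul_inv]
    ring
  rw [h4] at h3
  calc ‖b u v‖ = ((‖u‖ * ‖v‖)⁻¹ * ‖b u v‖) * (‖u‖ * ‖v‖) := by field_simp
    _ ≤ (M * (1 ^ 2 + 1 ^ 2) / 2) * (‖u‖ * ‖v‖) := by gcongr
    _ = _ := by ring

/-- the bounds over a compact set -/
theorem bounds (hC : Cov I U Gam) (hS : ∀ q v w, Gam q v w = Gam q w v) {K : Set X}
    (hK : IsCompact K) : ∃ C : ℝ, 1 ≤ C ∧ ∀ z ∈ K, (∀ c, ‖I.E z c‖ ≤ C * ‖c‖) ∧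
      (∀ u, ‖(I.EE z).symm u‖ ≤ C * ‖u‖) ∧
      ∀ u v, ‖Gam (I.S.ft z) (I.E z u) (I.E z v)‖ ≤ C * (‖u‖ * ‖v‖) := by
  have hQ : IsCompact (I.S.ft '' K) := hK.image I.ft_cont
  have hBQ : IsCompact ((univ : Set B) ×ˢ (I.S.ft '' K)) := isCompact_univ.prod hQ
  obtain ⟨C₁, hC₁⟩ := hBQ.exists_bound_of_continuousOn (vel_cont I).continuousOn
  obtain ⟨C₂, hC₂⟩ := hBQ.exists_bound_of_continuousOn (dvel_cont I).continuousOn
  obtain ⟨C₃, hC₃⟩ := hQ.exists_bound_of_continuousOn (f := I.G) I.G_smooth.continuous.continuousOn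
  have hC₁0 : 0 ≤ max C₁ 0 := le_max_right _ _
  set C : ℝ := 1 + max C₁ 0 + max C₂ 0 * max C₁ 0 + max C₃ 0 with hCd
  have hu : ∀ z ∈ K, ∀ c : E3, ‖c‖ = 1 → ∃ ξ, I.vel ξ (I.S.ft z) = I.E z c := by
    intro z hz c hc
    refine I.exists_vel H459.invThm ?_
    rw [I.G_E, real_inner_self_eq_norm_sq, hc, one_pow]
  have hE1 : ∀ z ∈ K, ∀ c : E3, ‖c‖ = 1 → ‖I.E z c‖ ≤ max C₁ 0 := by
    intro z hz c hc
    obtain ⟨ξ, hξ⟩ := hu z hz c hc
    rw [← hξ]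
    exact (hC₁ (ξ, I.S.ft z) ⟨mem_univ _, mem_image_of_mem _ hz⟩).trans (le_max_left _ _)
  refine ⟨C, by
    rw [hCd]
    have : 0 ≤ max C₂ 0 * max C₁ 0 := by positivity
    have : 0 ≤ max C₃ 0 := le_max_right _ _
    linarith, fun z hz => ⟨fun c => ?_, fun u => ?_, fun u v => ?_⟩⟩
  · rcases eq_or_ne c 0 with rfl | hc
    · simp
    have hc' : 0 < ‖c‖ := norm_pos_iff.2 hc
    have h1 := hE1 z hz (‖c‖⁻¹ • c) (by rw [norm_smul, norm_inv, norm_norm, inv_mul_cancel₀ hc'.ne'])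
    rw [map_smul, norm_smul, norm_inv, norm_norm] at h1
    calc ‖I.E z c‖ = (‖c‖⁻¹ * ‖I.E z c‖) * ‖c‖ := by field_simp
      _ ≤ max C₁ 0 * ‖c‖ := by gcongr
      _ ≤ C * ‖c‖ := by
          gcongr
          rw [hCd]
          have : 0 ≤ max C₂ 0 * max C₁ 0 := by positivity
          have : 0 ≤ max C₃ 0 := le_max_right _ _
          linarith
  · set c : E3 := (I.EE z).symm u with hcd
    have h1 : I.E z c = u := (I.EE z).apply_symm_apply u
    have h2 := I.G_E z c c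
    rw [h1, real_inner_self_eq_norm_sq] at h2
    have h3 : ‖c‖ ^ 2 ≤ max C₃ 0 * (‖u‖ * ‖u‖) := by
      rw [← h2]
      have h4 : ‖I.G (I.S.ft z)‖ ≤ max C₃ 0 :=
        (hC₃ _ (mem_image_of_mem _ hz)).trans (le_max_left _ _)
      calc I.G (I.S.ft z) u u ≤ ‖I.G (I.S.ft z) u u‖ := Real.le_norm_self _
        _ ≤ ‖I.G (I.S.ft z)‖ * ‖u‖ * ‖u‖ := (I.G (I.S.ft z)).le_opNorm₂ u u
        _ ≤ _ := by
            rw [mul_assoc]
            gcongr
    have h5 : 1 + max C₃ 0 ≤ C := by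
      rw [hCd]
      have : 0 ≤ max C₂ 0 * max C₁ 0 := by positivity
      linarith
    have h6 : 0 ≤ max C₃ 0 := le_max_right _ _
    refine le_trans (b := (1 + max C₃ 0) * ‖u‖) ?_ (by gcongr)
    refine le_of_sq_le_sq ?_ (by positivity)
    nlinarith [sq_nonneg ‖u‖, mul_nonneg h6 (sq_nonneg ‖u‖), mul_nonneg (mul_nonneg h6 h6) (sq_nonneg ‖u‖)]
  · have h0 : max C₂ 0 * max C₁ 0 ≤ C := by
      rw [hCd]
      have : 0 ≤ max C₃ 0 := le_max_right _ _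
      linarith
    refine le_trans ?_ (mul_le_mul_of_nonneg_right h0 (by positivity))
    refine bil_bound (F := V) (LinearMap.mk₂ ℝ (fun u v => Gam (I.S.ft z) (I.E z u) (I.E z v))
      (fun _ _ _ => by simp) (fun _ _ _ => by simp) (fun _ _ _ => by simp)
      (fun _ _ _ => by simp)) (fun u v => hS _ _ _) (fun c hc => ?_) u v
    obtain ⟨ξ, hξ⟩ := hu z hz c hc
    show ‖Gam (I.S.ft z) (I.E z c) (I.E z c)‖ ≤ _
    have h1 := Uh_vel hC ξ (I.S.ft z)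
    rw [Uh, hξ] at h1
    have h2 : Gam (I.S.ft z) (I.E z c) (I.E z c) = -(fderiv ℝ (I.vel ξ) (I.S.ft z) (I.E z c)) :=
      (neg_eq_of_add_eq_zero_right h1).symm
    rw [h2, norm_neg]
    refine (ContinuousLinearMap.le_opNorm _ _).trans ?_
    have h3 : ‖fderiv ℝ (I.vel ξ) (I.S.ft z)‖ ≤ max C₂ 0 :=
      (hC₂ (ξ, I.S.ft z) ⟨mem_univ _, mem_image_of_mem _ hz⟩).trans (le_max_left _ _)
    exact mul_le_mul h3 (hE1 z hz c hc) (norm_nonneg _) (le_max_right _ _)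

/-- `ξ` is close to `em z` if the angle is small -/
theorem dvel_close {K : Set X} (hK : IsCompact K) {ε : ℝ} (hε : 0 < ε) : ∃ δ > 0, ∀ z ∈ K, ∀ ξ,
    ‖I.vel ξ (I.S.ft z) - I.vel (L.em z) (I.S.ft z)‖ < δ →
    ‖fderiv ℝ (I.vel ξ) (I.S.ft z) - fderiv ℝ (I.vel (L.em z)) (I.S.ft z)‖ < ε := by
  have c1 : Continuous fun p : X × B => (p.2, I.S.ft p.1) :=
    continuous_snd.prodMk (I.ft_cont.comp continuous_fst)
  have c2 : Continuous fun p : X × B => (L.em p.1, I.S.ft p.1) :=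
    (L.em_cont.comp continuous_fst).prodMk (I.ft_cont.comp continuous_fst)
  have hf : Continuous fun p : X × B =>
      ‖I.vel p.2 (I.S.ft p.1) - I.vel (L.em p.1) (I.S.ft p.1)‖ :=
    (((vel_cont I).comp c1).sub ((vel_cont I).comp c2)).norm
  have hg : Continuous fun p : X × B =>
      ‖fderiv ℝ (I.vel p.2) (I.S.ft p.1) - fderiv ℝ (I.vel (L.em p.1)) (I.S.ft p.1)‖ :=
    (((dvel_cont I).comp c1).sub ((dvel_cont I).comp c2)).norm
  set F : Set (X × B) := (K ×ˢ univ) ∩ {p | ε ≤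
    ‖fderiv ℝ (I.vel p.2) (I.S.ft p.1) - fderiv ℝ (I.vel (L.em p.1)) (I.S.ft p.1)‖} with hF
  have hFc : IsCompact F := (hK.prod isCompact_univ).inter_right (isClosed_le continuous_const hg)
  obtain ⟨δ, hδ, h⟩ := hFc.exists_forall_le' (a := (0 : ℝ)) hf.continuousOn (by
    rintro ⟨z, ξ⟩ ⟨-, h1⟩
    refine norm_pos_iff.2 fun h0 => ?_
    have h2 : ξ = L.em z := I.vel_inj H459.invThm (sub_eq_zero.1 h0)
    have h3 : ε ≤ ‖fderiv ℝ (I.vel ξ) (I.S.ft z) - fderiv ℝ (I.vel (L.em z)) (I.S.ft z)‖ := h1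
    rw [h2, sub_self, norm_zero] at h3
    linarith)
  refine ⟨δ, hδ, fun z hz ξ hlt => ?_⟩
  by_contra hcon
  push Not at hcon
  exact absurd (h (z, ξ) ⟨⟨hz, mem_univ _⟩, hcon⟩) (not_le.2 hlt)

theorem norm_kap_sub {z : X} {ξ : B} (h0 : 0 < ca I z ξ) :
    ‖kap I z ξ - e0‖ ≤ 2 * ‖tl (kap I z ξ)‖ := by
  have h1 : kap I z ξ - e0 = (ca I z ξ - 1) • e0 + pk 0 (tl (kap I z ξ)) := by
    conv_lhs => rw [kap_split]
    module
  have h2 := ca_sq I z ξ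
  have h3 : |ca I z ξ - 1| ≤ ‖tl (kap I z ξ)‖ := by
    have h4 : ca I z ξ ≤ 1 := by nlinarith [sq_nonneg ‖tl (kap I z ξ)‖]
    rw [abs_le]
    constructor
    · nlinarith [norm_nonneg (tl (kap I z ξ))]
    · linarith [norm_nonneg (tl (kap I z ξ))]
  rw [h1]
  refine (norm_add_le _ _).trans ?_
  rw [norm_smul, H76.norm_e0, H76.norm_pk_zero_left, Real.norm_eq_abs]
  linarith

/-- **the operator of the equation is close to `U`** -/
theorem Wz_close (hC : Cov I U Gam) (hS : ∀ q v w, Gam q v w = Gam q w v)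
    (hE : ∀ (g : Γ) x c, I.E (g • x) c = fderiv ℝ (I.act g) (I.S.ft x) (I.E x c))
    (hU : ∀ (g : Γ) x, U (g • x) = U x) {ε : ℝ} (hε : 0 < ε) : ∃ δ > 0, ∀ z ξ,
    0 < ca I z ξ → ‖tl (kap I z ξ)‖ ≤ δ → ∀ v, ‖Wz I Gam z ξ v - U z v‖ ≤ ε * ‖v‖ := by
  obtain ⟨K, hK, hcov⟩ := L.cocompact
  obtain ⟨C, hC1, hb⟩ := bounds hC hS hK
  have hC0 : 0 < C := by linarith
  obtain ⟨δ₁, hδ₁, hd⟩ := dvel_close (I := I) hK (ε := ε / (2 * C ^ 2)) (by positivity)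
  refine ⟨min (δ₁ / (4 * C)) (ε / (4 * C ^ 2)), by positivity, ?_⟩
  have main : ∀ z ∈ K, ∀ ξ, 0 < ca I z ξ →
      ‖tl (kap I z ξ)‖ ≤ min (δ₁ / (4 * C)) (ε / (4 * C ^ 2)) → ∀ v,
      ‖Wz I Gam z ξ v - U z v‖ ≤ ε * ‖v‖ := by
    intro z hz ξ h0 hw v
    obtain ⟨b1, b2, b3⟩ := hb z hz
    have hk := norm_kap_sub h0
    have e1 : I.vel ξ (I.S.ft z) - I.vel (L.em z) (I.S.ft z) = I.E z (kap I z ξ - e0) := by
      rw [map_sub, E_kap, I.vel_eq H459.invThm]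
    have h1 : ‖I.vel ξ (I.S.ft z) - I.vel (L.em z) (I.S.ft z)‖ < δ₁ := by
      rw [e1]
      refine (b1 _).trans_lt ?_
      have h2 : ‖tl (kap I z ξ)‖ ≤ δ₁ / (4 * C) := hw.trans (min_le_left _ _)
      calc C * ‖kap I z ξ - e0‖ ≤ C * (2 * (δ₁ / (4 * C))) := by gcongr; linarith
        _ = δ₁ / 2 := by field_simp; ring
        _ < δ₁ := by linarith
    have h2 := hd z hz ξ h1
    have e2 : Wz I Gam z ξ v - U z v = tl ((I.EE z).symm (
        (fderiv ℝ (I.vel ξ) (I.S.ft z) - fderiv ℝ (I.vel (L.em z)) (I.S.ft z)) (I.E z (pk 0 v)) +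
        Gam (I.S.ft z) (I.E z (pk 0 v)) (I.E z (kap I z ξ - e0)))) := by
      rw [← Wz_em hC, Wz, Wz]
      have h3 : ∀ a b : E3, tl a - tl b = tl (a - b) := fun a b => (H76.tlL.map_sub a b).symm
      rw [h3, ← map_sub, ← e1]
      congr 2
      simp only [Uh, map_sub, sub_apply]
      abel
    rw [e2]
    refine (norm_tl_le _).trans ((b2 _).trans ?_)
    have h3 : ‖(fderiv ℝ (I.vel ξ) (I.S.ft z) - fderiv ℝ (I.vel (L.em z)) (I.S.ft z))
        (I.E z (pk 0 v))‖ ≤ ε / (2 * C ^ 2) * (C * ‖v‖) := by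
      refine (ContinuousLinearMap.le_opNorm _ _).trans ?_
      refine mul_le_mul h2.le ?_ (norm_nonneg _) (by positivity)
      have := b1 (pk 0 v)
      rwa [H76.norm_pk_zero_left] at this
    have h4 : ‖Gam (I.S.ft z) (I.E z (pk 0 v)) (I.E z (kap I z ξ - e0))‖ ≤
        C * (‖v‖ * (2 * (ε / (4 * C ^ 2)))) := by
      have := b3 (pk 0 v) (kap I z ξ - e0)
      rw [H76.norm_pk_zero_left] at this
      refine this.trans ?_
      have h5 : ‖tl (kap I z ξ)‖ ≤ ε / (4 * C ^ 2) := hw.trans (min_le_right _ _)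
      gcongr
      linarith
    calc C * ‖_ + _‖ ≤ C * (ε / (2 * C ^ 2) * (C * ‖v‖) + C * (‖v‖ * (2 * (ε / (4 * C ^ 2))))) := by
          gcongr
          exact (norm_add_le _ _).trans (add_le_add h3 h4)
      _ = ε * ‖v‖ := by field_simp; ring
  intro z ξ h0 hw v
  obtain ⟨g, hg⟩ := hcov z
  have h1 := main (g • z) hg (g • ξ)
    (by rw [ca, kap_smul hE]; exact h0) (by rw [kap_smul hE]; exact hw) v
  rwa [Wz_smul hE hC hU, hU] at h1

/-- **the vector equation of the angle** -/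
theorem ode (hC : Cov I U Gam) (hS : ∀ q v w, Gam q v w = Gam q w v)
    (hE : ∀ (g : Γ) x c, I.E (g • x) c = fderiv ℝ (I.act g) (I.S.ft x) (I.E x c))
    (hU : ∀ (g : Γ) x, U (g • x) = U x) {b₀ : ℝ} (hb : ∀ x, ‖U x‖ ≤ b₀) {ε : ℝ} (hε : 0 < ε) :
    ∃ δ > 0, ∀ x ξ s, 0 < ca I (L.φ s x) ξ → ‖tl (kap I (L.φ s x) ξ)‖ ≤ δ →
    ∃ w' : E2, HasDerivAt (fun r => tl (kap I (L.φ r x) ξ)) w' s ∧
      ‖w' + U (L.φ s x) (tl (kap I (L.φ s x) ξ))‖ ≤ ε * ‖tl (kap I (L.φ s x) ξ)‖ := by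
  obtain ⟨δ₁, hδ₁, h⟩ := Wz_close hC hS hE hU (ε := ε / 4) (by positivity)
  have hb0 : 0 ≤ |b₀| := abs_nonneg _
  refine ⟨min δ₁ (min (1 / 2) (ε / (4 * (|b₀| + 1)))), by positivity, ?_⟩
  intro x ξ s h0 hw
  refine ⟨_, hasDerivAt_tl hC x ξ s, ?_⟩
  set z := L.φ s x
  set w := tl (kap I z ξ) with hwd
  set c := ca I z ξ with hc
  have h1 := h z ξ h0 (hw.trans (min_le_left _ _)) w
  have h2 : ‖w‖ ≤ 1 / 2 := hw.trans ((min_le_right _ _).trans (min_le_left _ _))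
  have h3 : ‖w‖ ≤ ε / (4 * (|b₀| + 1)) := hw.trans ((min_le_right _ _).trans (min_le_right _ _))
  have h4 := ca_sq I z ξ
  rw [← hc, ← hwd] at h4
  have hc1 : c ≤ 1 := by nlinarith [sq_nonneg ‖w‖]
  have hc2 : 1 / 2 ≤ c := by nlinarith [norm_nonneg w]
  have hc3 : 1 - c ≤ ‖w‖ := by nlinarith [norm_nonneg w]
  have e1 := ode_c hC z ξ
  rw [← hc, ← hwd] at e1
  set w' := tl ((I.EE z).symm (Uh I Gam ξ (I.S.ft z) (I.E z e0))) with hw'
  have e2 : c • (w' + U z w) = -(Wz I Gam z ξ w - U z w) - (1 - c) • U z w := by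
    rw [smul_add, e1]
    module
  have h5 : c * ‖w' + U z w‖ ≤ ε / 4 * ‖w‖ + (1 - c) * (|b₀| * ‖w‖) := by
    have h6 : c * ‖w' + U z w‖ = ‖c • (w' + U z w)‖ := by
      rw [norm_smul, Real.norm_of_nonneg h0.le]
    rw [h6, e2]
    refine (norm_sub_le _ _).trans (add_le_add ?_ ?_)
    · rw [norm_neg]
      exact h1
    · rw [norm_smul, Real.norm_of_nonneg (by linarith)]
      refine mul_le_mul_of_nonneg_left ?_ (by linarith)
      refine ((U z).le_opNorm w).trans ?_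
      exact mul_le_mul_of_nonneg_right ((hb z).trans (le_abs_self _)) (norm_nonneg _)
  have h7 : (1 - c) * (|b₀| * ‖w‖) ≤ ε / 4 * ‖w‖ := by
    have h8 : (1 - c) * |b₀| ≤ ε / 4 := by
      calc (1 - c) * |b₀| ≤ (ε / (4 * (|b₀| + 1))) * (|b₀| + 1) := by
            refine mul_le_mul (hc3.trans h3) (by linarith) hb0 (by positivity)
        _ = ε / 4 := by field_simp
    calc (1 - c) * (|b₀| * ‖w‖) = ((1 - c) * |b₀|) * ‖w‖ := by ring
      _ ≤ _ := by gcongr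
  nlinarith [norm_nonneg (w' + U z w)]

end Vale.Agent.P207.N4.H734.AngV
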